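import Mathlib

namespace Vale.Agent.P243

open MeasureTheory
open scoped ENNReal

/-- Euclidean three-space. -/
abbrev E3 := EuclideanSpace ℝ (Fin 3)

/-- Planar area of a subset of a plane in three-space: the two-dimensional Hausdorff measure,
normalised (Mathlib's `μHE[2]`) to be Lebesgue measure on every Euclidean plane. -/
noncomputable def area (B : Set E3) : ℝ≥0∞ := μHE[2] B

/-- Orthogonal projection onto the plane orthogonal to the unit vector `u`. -/
noncomputable def proj (u x : E3) : E3 := x - (inner ℝ u x) • u

/-- The least area of an orthogonal projection of `K` onto a plane. -/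
noncomputable def Amin (K : Set E3) : ℝ≥0∞ := ⨅ (u : E3) (_ : ‖u‖ = 1), area (proj u '' K)

/-- The cylinder `B + ℝ u`. -/
def cylinder (B : Set E3) (u : E3) : Set E3 := {x | ∃ b ∈ B, ∃ t : ℝ, x = b + t • u}

end Vale.Agent.P243
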