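import Mathlib
import Vale.Agent.P243.Defs

namespace Vale.Agent.P243

open MeasureTheory
open scoped ENNReal InnerProductSpace

def det3 (a b u : E3) : ℝ :=
  a 0 * (b 1 * u 2 - b 2 * u 1) - a 1 * (b 0 * u 2 - b 2 * u 0) + a 2 * (b 0 * u 1 - b 1 * u 0)

lemma inner3 (a b : E3) : ⟪a, b⟫_ℝ = a 0 * b 0 + a 1 * b 1 + a 2 * b 2 := by
  simp [PiLp.inner_apply, Fin.sum_univ_three]; ring

lemma unit3 {u : E3} (hu : ‖u‖ = 1) : u 0 ^ 2 + u 1 ^ 2 + u 2 ^ 2 = 1 := by
  have := EuclideanSpace.norm_sq_eq u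
  rw [hu, Fin.sum_univ_three] at this
  simp only [Real.norm_eq_abs, sq_abs] at this
  linarith

lemma inner_proj {u : E3} (hu : ‖u‖ = 1) (x : E3) : ⟪u, proj u x⟫_ℝ = 0 := by
  unfold proj
  rw [inner_sub_right, inner_smul_right, real_inner_self_eq_norm_sq, hu]; ring

lemma continuous_proj (u : E3) : Continuous (proj u) := by
  unfold proj; fun_prop

/-- the parametrised projected affine map -/
noncomputable def par (u o a b : E3) (st : ℝ × ℝ) : E3 := proj u (o + st.1 • a + st.2 • b)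

theorem area_par {u : E3} (hu : ‖u‖ = 1) (o a b : E3) (S : Set (ℝ × ℝ)) :
    area (par u o a b '' S) = ENNReal.ofReal |det3 a b u| * volume S := by
  have hu0 : u ≠ 0 := by rintro rfl; simp at hu
  have : Fact (Module.finrank ℝ E3 = 2 + 1) := ⟨by simp⟩
  let e := OrthonormalBasis.fromOrthogonalSpanSingleton (𝕜 := ℝ) 2 hu0
  have hmem : ∀ x, proj u x ∈ (ℝ ∙ u)ᗮ := fun x =>
    Submodule.mem_orthogonal_singleton_iff_inner_right.mpr (inner_proj hu x)
  let π : E3 → (ℝ ∙ u)ᗮ := fun x => ⟨proj u x, hmem x⟩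
  have he : ∀ i x, ⟪e i, π x⟫_ℝ = ⟪(e i : E3), x⟫_ℝ := by
    intro i x
    have h0 : ⟪(e i : E3), u⟫_ℝ = 0 :=
      Submodule.mem_orthogonal_singleton_iff_inner_left.mp (e i).2
    show ⟪(e i : E3), proj u x⟫_ℝ = _
    unfold proj
    rw [inner_sub_right, inner_smul_right, h0]; ring
  let ι : EuclideanSpace ℝ (Fin 2) → E3 := fun z => (e.repr.symm z : E3)
  have hι : Isometry ι := isometry_subtype_coe.comp e.repr.symm.isometry
  let M : Matrix (Fin 2) (Fin 2) ℝ :=
    !![⟪(e 0 : E3), a⟫_ℝ, ⟪(e 0 : E3), b⟫_ℝ; ⟪(e 1 : E3), a⟫_ℝ, ⟪(e 1 : E3), b⟫_ℝ]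
  let c : Fin 2 → ℝ := ![⟪(e 0 : E3), o⟫_ℝ, ⟪(e 1 : E3), o⟫_ℝ]
  let S' : Set (Fin 2 → ℝ) := MeasurableEquiv.finTwoArrow ⁻¹' S
  let T : Set (Fin 2 → ℝ) := (fun z => -c + z) ⁻¹' (Matrix.toLin' M '' S')
  have hset : par u o a b '' S = ι '' (WithLp.ofLp ⁻¹' T) := by
    have key : ∀ st : ℝ × ℝ, par u o a b st =
        ι (WithLp.toLp 2 (c + Matrix.toLin' M ![st.1, st.2])) := by
      intro st
      have h1 : e.repr (π (o + st.1 • a + st.2 • b)) =
          WithLp.toLp 2 (c + Matrix.toLin' M ![st.1, st.2]) := by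
        ext i
        rw [OrthonormalBasis.repr_apply_apply, he]
        fin_cases i <;>
          simp [c, M, Matrix.toLin'_apply,
            inner_add_right, inner_smul_right] <;> ring
      simp only [ι]
      rw [← h1, LinearIsometryEquiv.symm_apply_apply]
      rfl
    ext x
    constructor
    · rintro ⟨st, hst, rfl⟩
      refine ⟨_, ?_, (key st).symm⟩
      refine ⟨![st.1, st.2], ?_, ?_⟩
      · simpa [S'] using hst
      · simp
    · rintro ⟨z, ⟨w, hw, hwz⟩, rfl⟩
      refine ⟨(w 0, w 1), by simpa [S'] using hw, ?_⟩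
      rw [key]
      have : ![w 0, w 1] = w := by ext i; fin_cases i <;> rfl
      simp only [this, hwz]
      simp
  have hdet : |M.det| = |det3 a b u| := by
    rw [← sq_eq_sq_iff_abs_eq_abs, Matrix.det_fin_two]
    have hg : ∀ x y : E3, ⟪(e 0 : E3), x⟫_ℝ * ⟪(e 0 : E3), y⟫_ℝ +
        ⟪(e 1 : E3), x⟫_ℝ * ⟪(e 1 : E3), y⟫_ℝ = ⟪x, y⟫_ℝ - ⟪u, x⟫_ℝ * ⟪u, y⟫_ℝ := by
      intro x y
      have h1 := e.sum_inner_mul_inner (π x) (π y)
      rw [Fin.sum_univ_two, real_inner_comm, real_inner_comm (e 1), he, he, he, he] at h1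
      rw [h1]
      show ⟪proj u x, proj u y⟫_ℝ = _
      conv_lhs => rw [proj]
      rw [inner_sub_left, inner_smul_left, inner_proj hu, proj, inner_sub_right, inner_smul_right,
        real_inner_comm u x]
      simp; ring
    have h1 := hg a a
    have h2 := hg b b
    have h3 := hg a b
    have h4 := unit3 hu
    simp only [M, Matrix.of_apply, Matrix.cons_val', Matrix.cons_val_zero, Matrix.cons_val_one,
      Matrix.cons_val_fin_one]
    have h5 : (⟪(e 0 : E3), a⟫_ℝ * ⟪(e 1 : E3), b⟫_ℝ - ⟪(e 0 : E3), b⟫_ℝ * ⟪(e 1 : E3), a⟫_ℝ) ^ 2 =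
        (⟪a, a⟫_ℝ - ⟪u, a⟫_ℝ * ⟪u, a⟫_ℝ) * (⟪b, b⟫_ℝ - ⟪u, b⟫_ℝ * ⟪u, b⟫_ℝ) -
          (⟪a, b⟫_ℝ - ⟪u, a⟫_ℝ * ⟪u, b⟫_ℝ) ^ 2 := by
      rw [← h1, ← h2, ← h3]; ring
    rw [h5]
    simp only [inner3, det3]
    linear_combination (-((a 0 * a 0 + a 1 * a 1 + a 2 * a 2) * (b 0 * b 0 + b 1 * b 1 + b 2 * b 2) -
      (a 0 * b 0 + a 1 * b 1 + a 2 * b 2) ^ 2)) * h4
  unfold area
  rw [hset, hι.euclideanHausdorffMeasure_image, EuclideanSpace.euclideanHausdorffMeasure_eq_volume]
  have hmp : MeasurePreserving (MeasurableEquiv.toLp 2 (Fin 2 → ℝ)).symm volume volume :=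
    PiLp.volume_preserving_ofLp (Fin 2)
  have := hmp.measure_preimage_equiv T
  erw [this]
  simp only [T]
  rw [measure_preimage_add, Measure.addHaar_image_linearMap, LinearMap.det_toLin', hdet]
  congr 1
  exact (volume_preserving_finTwoArrow ℝ).measure_preimage_equiv S

/-- closed standard triangle -/
def triC : Set (ℝ × ℝ) := {st | 0 ≤ st.1 ∧ 0 ≤ st.2 ∧ st.1 + st.2 ≤ 1}

/-- half-open standard triangle -/
def triO : Set (ℝ × ℝ) := regionBetween (fun _ => 0) (fun s => 1 - s) (Set.Icc 0 1)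

lemma isCompact_triC : IsCompact triC := by
  apply (isCompact_Icc (a := ((0:ℝ), (0:ℝ))) (b := (1, 1))).of_isClosed_subset
  · unfold triC
    refine (isClosed_le continuous_const continuous_fst).inter
      ((isClosed_le continuous_const continuous_snd).inter
        (isClosed_le (continuous_fst.add continuous_snd) continuous_const))
  · rintro ⟨s, t⟩ ⟨h1, h2, h3⟩
    simp only [Set.mem_Icc, Prod.mk_le_mk] at *
    exact ⟨⟨h1, h2⟩, by linarith, by linarith⟩

lemma vol_region (ε : ℝ) (hε : 0 ≤ ε) :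
    volume (regionBetween (fun _ => -ε) (fun s : ℝ => 1 - s + ε) (Set.Icc 0 1)) =
      ENNReal.ofReal (1 / 2 + 2 * ε) := by
  rw [Measure.volume_eq_prod, volume_regionBetween_eq_integral]
  · congr 1
    rw [integral_Icc_eq_integral_Ioc, ← intervalIntegral.integral_of_le zero_le_one]
    have : ((fun s : ℝ => 1 - s + ε) - fun _ => -ε) = fun s : ℝ => (1 + 2 * ε) - s := by
      ext s; simp; ring
    rw [this, intervalIntegral.integral_sub (by simp) (by simp)]
    simp; ring
  · exact continuousOn_const.integrableOn_Icc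
  · exact (by fun_prop : Continuous fun s : ℝ => 1 - s + ε).continuousOn.integrableOn_Icc
  · exact measurableSet_Icc
  · intro x hx; linarith [hx.2]

lemma vol_triO : volume triO = ENNReal.ofReal (1 / 2) := by
  have := vol_region 0 le_rfl
  simpa [triO] using this

lemma vol_triC_le (ε : ℝ) (hε : 0 < ε) : volume triC ≤ ENNReal.ofReal (1 / 2 + 2 * ε) := by
  rw [← vol_region ε hε.le]
  apply measure_mono
  rintro ⟨s, t⟩ ⟨h1, h2, h3⟩
  simp only at h1 h2 h3
  refine ⟨⟨h1, by simp only; linarith⟩, by simp only; linarith, by simp only; linarith⟩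

lemma det3_proj (a x u : E3) : det3 a (proj u x) u = det3 a x u := by
  simp [det3, proj]; ring

/-- A convex set containing four points projects to area at least half the determinant of the
two diagonals. -/
theorem area_ge_quad {K : Set E3} (hK : Convex ℝ K) {u : E3} (hu : ‖u‖ = 1) {P Q R S : E3}
    (hP : P ∈ K) (hQ : Q ∈ K) (hR : R ∈ K) (hS : S ∈ K) :
    ENNReal.ofReal (|det3 (Q - P) (R - S) u| / 2) ≤ area (proj u '' K) := by
  have hsub : ∀ R ∈ K, par u P (Q - P) (R - P) '' triO ⊆ proj u '' K := by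
    rintro R hR _ ⟨⟨s, t⟩, ⟨⟨h1, h2⟩, h3, h4⟩, rfl⟩
    simp only at h1 h2 h3 h4
    refine ⟨_, ?_, rfl⟩
    have := hK.sum_mem (t := Finset.univ) (w := ![1 - s - t, s, t]) (z := ![P, Q, R])
      (by intro i _; fin_cases i <;> simp <;> linarith)
      (by simp [Fin.sum_univ_three]; ring)
      (by intro i _; fin_cases i <;> simpa)
    simp only [Fin.sum_univ_three, Matrix.cons_val_zero, Matrix.cons_val_one, Matrix.cons_val_two,
      Matrix.head_cons, Matrix.tail_cons] at this
    convert this using 1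
    module
  have hone : ∀ R ∈ K, ENNReal.ofReal (|det3 (Q - P) (R - P) u| / 2) =
      area (par u P (Q - P) (R - P) '' triO) := by
    intro R _
    rw [area_par hu, vol_triO, ← ENNReal.ofReal_mul (abs_nonneg _)]
    congr 1; ring
  have hval : ∀ R : E3, ∀ x ∈ par u P (Q - P) (R - P) '' triO, ∃ t : ℝ, 0 < t ∧
      det3 (Q - P) x u - det3 (Q - P) P u = t * det3 (Q - P) (R - P) u := by
    rintro R _ ⟨⟨s, t⟩, ⟨_, h3, _⟩, rfl⟩
    refine ⟨t, h3, ?_⟩
    rw [par, det3_proj]
    simp [det3]; ring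
  have hlin : det3 (Q - P) (R - S) u = det3 (Q - P) (R - P) u - det3 (Q - P) (S - P) u := by
    simp [det3]; ring
  have two : ∀ R ∈ K, ∀ S ∈ K, 0 < det3 (Q - P) (R - P) u → det3 (Q - P) (S - P) u < 0 →
      ENNReal.ofReal ((det3 (Q - P) (R - P) u - det3 (Q - P) (S - P) u) / 2) ≤
        area (proj u '' K) := by
    intro R hR S hS h1 h2
    let U : Set E3 := {x | det3 (Q - P) P u < det3 (Q - P) x u}
    have hU : MeasurableSet U := by
      apply IsOpen.measurableSet
      apply isOpen_lt continuous_const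
      unfold det3; fun_prop
    unfold area
    rw [← measure_inter_add_sdiff _ hU]
    have e : (det3 (Q - P) (R - P) u - det3 (Q - P) (S - P) u) / 2 =
        |det3 (Q - P) (R - P) u| / 2 + |det3 (Q - P) (S - P) u| / 2 := by
      rw [abs_of_pos h1, abs_of_neg h2]; ring
    rw [e, ENNReal.ofReal_add (by positivity) (by positivity), hone R hR, hone S hS]
    apply add_le_add
    · apply measure_mono
      intro x hx
      refine ⟨hsub R hR hx, ?_⟩
      obtain ⟨t, ht, h⟩ := hval R x hx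
      have := mul_pos ht h1
      show det3 (Q - P) P u < det3 (Q - P) x u
      linarith
    · apply measure_mono
      intro x hx
      refine ⟨hsub S hS hx, ?_⟩
      obtain ⟨t, ht, h⟩ := hval S x hx
      have := mul_neg_of_pos_of_neg ht h2
      show ¬ det3 (Q - P) P u < det3 (Q - P) x u
      linarith
  have one : ∀ R ∈ K, ENNReal.ofReal (|det3 (Q - P) (R - P) u| / 2) ≤ area (proj u '' K) := by
    intro R hR
    rw [hone R hR]
    exact measure_mono (hsub R hR)
  rw [hlin]
  set α := det3 (Q - P) (R - P) u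
  set β := det3 (Q - P) (S - P) u
  by_cases h1 : 0 < α ∧ β < 0
  · rw [abs_of_pos (by linarith [h1.1, h1.2])]
    exact two R hR S hS h1.1 h1.2
  by_cases h2 : 0 < β ∧ α < 0
  · rw [abs_of_neg (by linarith [h2.1, h2.2]), neg_sub]
    exact two S hS R hR h2.1 h2.2
  have : |α - β| ≤ |α| ∨ |α - β| ≤ |β| := by
    rcases abs_cases α with h | h <;> rcases abs_cases β with h' | h' <;>
      rcases abs_cases (α - β) with h'' | h'' <;>
      first
        | (left; linarith)
        | (right; linarith)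
        | (push Not at h1 h2; rcases h.2.eq_or_lt with h3 | h3
           · right; linarith
           · have := h1 h3; linarith)
        | (push Not at h1 h2; rcases h'.2.eq_or_lt with h3 | h3
           · left; linarith
           · have := h2 h3; linarith)
  rcases this with h | h
  · exact (ENNReal.ofReal_le_ofReal (by linarith)).trans (one R hR)
  · exact (ENNReal.ofReal_le_ofReal (by linarith)).trans (one S hS)

end Vale.Agent.P243
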