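import Mathlib

namespace Vale.Agent.P243

noncomputable def kk : ℝ := 1 / 1000
noncomputable def eta : ℝ := 1 / 10 ^ 9
noncomputable def pp (m δ : ℝ) : ℝ := kk * (1 + m ^ 2 - δ ^ 2) / 4
noncomputable def rr (m : ℝ) : ℝ := kk * m / 2
noncomputable def tt (m : ℝ) : ℝ := 1 / 2 + (kk ^ 2 * (m ^ 2 + m ^ 4) / 16 + eta)

lemma sector (δ κ : ℝ) (N : ℕ) (hN : δ * N = 1) (x y Z : ℝ) (hy : |y| ≤ Z) :
    ∃ i < N, 0 ≤ y - (-1 + 2 * δ * i) * Z - κ * x * (1 - (-1 + 2 * δ * i) ^ 2) / 4 ∧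
      y - (-1 + 2 * δ * (i + 1)) * Z - κ * x * (1 - (-1 + 2 * δ * (i + 1)) ^ 2) / 4 ≤ 0 := by
  have hN0 : 0 < N := by
    rcases Nat.eq_zero_or_pos N with h | h
    · rw [h] at hN; simp at hN
    · exact h
  set g : ℕ → ℝ := fun i => y - (-1 + 2 * δ * i) * Z - κ * x * (1 - (-1 + 2 * δ * i) ^ 2) / 4
    with hg
  have h0 : 0 ≤ g 0 := by simp only [hg]; have := (abs_le.mp hy).1; push_cast; linarith
  have hNg : g N ≤ 0 := by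
    simp only [hg]
    have : -1 + 2 * δ * N = 1 := by linarith
    rw [this]
    have := (abs_le.mp hy).2
    linarith
  have hex : ∃ i, g (i + 1) ≤ 0 := ⟨N - 1, by rwa [Nat.sub_add_cancel hN0]⟩
  classical
  have a1 : Nat.find hex < N := by
    have := Nat.find_min' hex (m := N - 1) (by rwa [Nat.sub_add_cancel hN0])
    omega
  have a2 : 0 ≤ g (Nat.find hex) := by
    rcases Nat.eq_zero_or_pos (Nat.find hex) with h | h
    · rw [h]; exact h0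
    · have := Nat.find_min hex (m := Nat.find hex - 1) (by omega)
      rw [Nat.sub_add_cancel h] at this
      exact (not_le.mp this).le
  have a3 := Nat.find_spec hex
  generalize Nat.find hex = i at a1 a2 a3
  refine ⟨i, a1, a2, ?_⟩
  simp only [hg] at a3
  push_cast at a3
  exact a3

lemma tt_bounds {m : ℝ} (hm : |m| ≤ 1) : 1 / 2 ≤ tt m ∧ tt m ≤ 1 / 2 + 1 / 10 ^ 6 := by
  have h2 : m ^ 2 ≤ 1 := by rw [← sq_abs]; nlinarith [abs_nonneg m]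
  have h4 : m ^ 4 ≤ 1 := by nlinarith [sq_nonneg m]
  have h5 : 0 ≤ m ^ 4 := by positivity
  unfold tt kk eta
  constructor <;> nlinarith [sq_nonneg m]

lemma sq_le_one' {m : ℝ} (hm : |m| ≤ 1) : m ^ 2 ≤ 1 := by
  rw [← sq_abs]; nlinarith [abs_nonneg m]

lemma pp_bounds {δ m : ℝ} (hδ0 : 0 < δ) (hδ : δ ≤ 1 / 10 ^ 6) (hm : |m| ≤ 1) :
    0 ≤ pp m δ ∧ pp m δ ≤ kk * (1 + m ^ 2) / 4 ∧ pp m δ ≤ kk / 2 := by
  have := sq_le_one' hm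
  have hd2 : δ ^ 2 ≤ 1 := by nlinarith
  have := sq_nonneg m
  have := sq_nonneg δ
  unfold pp kk
  refine ⟨by linarith, by linarith, by linarith⟩

lemma rr_bounds {m : ℝ} (hm : |m| ≤ 1) : |rr m| ≤ kk / 2 := by
  unfold rr kk
  rw [abs_le] at *
  constructor <;> linarith [hm.1, hm.2]

lemma UV_bound {r r' p c : ℝ} (r1 : |r| ≤ kk / 2) (r1' : |r'| ≤ kk / 2) (p0 : |p| ≤ kk / 2)
    (hc : |c| ≤ 1) : |(r + r' * p) * c| ≤ kk := by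
  have hk : kk = 1 / 1000 := rfl
  have hk0 : 0 < kk := by rw [hk]; norm_num
  rw [abs_mul]
  have : |r + r' * p| ≤ kk := by
    calc |r + r' * p| ≤ |r| + |r' * p| := abs_add_le _ _
      _ = |r| + |r'| * |p| := by rw [abs_mul]
      _ ≤ kk / 2 + kk / 2 * (kk / 2) := by gcongr
      _ ≤ kk := by rw [hk]; norm_num
  calc |r + r' * p| * |c| ≤ kk * 1 := by gcongr
    _ = kk := mul_one _

lemma abs_mul_le' {a b δ : ℝ} (ha : |a| ≤ δ) (hb : |b| ≤ 1) : |a * b| ≤ δ := by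
  have : 0 ≤ δ := (abs_nonneg _).trans ha
  rw [abs_mul]
  calc |a| * |b| ≤ δ * 1 := by gcongr
    _ = δ := mul_one _

lemma main_est {δ m m' c c' p p' : ℝ} (hδ0 : 0 < δ)
    (hm : |m| ≤ 1) (hm' : |m'| ≤ 1) (hc : |c - m| ≤ δ) (hc' : |c' - m'| ≤ δ)
    (p0 : 0 ≤ p) (p0' : 0 ≤ p') (p1 : p ≤ kk * (1 + m ^ 2) / 4) (p1' : p' ≤ kk * (1 + m' ^ 2) / 4) :
    -(kk * δ) - kk ^ 2 / 8 * (m ^ 2 + m' ^ 2 + m ^ 4 + m' ^ 4 + 4 * δ) ≤
      (rr m' + (-rr m) * p') * c - (rr m + rr m' * p) * c' := by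
  have e : (rr m' + (-rr m) * p') * c - (rr m + rr m' * p) * c' =
      kk / 2 * ((c - m) * m' - (c' - m') * m) - kk / 2 * ((c * m) * p') -
      kk / 2 * ((c' * m') * p) := by
    simp only [rr]; ring
  have f1 := (abs_le.mp (abs_mul_le' hc hm')).1
  have f2 := (abs_le.mp (abs_mul_le' hc' hm)).2
  have c1 : c * m ≤ m ^ 2 + δ := by have := (abs_le.mp (abs_mul_le' hc hm)).2; linarith
  have c2 : c' * m' ≤ m' ^ 2 + δ := by have := (abs_le.mp (abs_mul_le' hc' hm')).2; linarith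
  have d1 : (c * m) * p' ≤ (m ^ 2 + δ) * (kk * (1 + m' ^ 2) / 4) := by
    calc (c * m) * p' ≤ (m ^ 2 + δ) * p' := by gcongr
      _ ≤ _ := by gcongr
  have d2 : (c' * m') * p ≤ (m' ^ 2 + δ) * (kk * (1 + m ^ 2) / 4) := by
    calc (c' * m') * p ≤ (m' ^ 2 + δ) * p := by gcongr
      _ ≤ _ := by gcongr
  have f3 : δ * m ^ 2 ≤ δ * 1 := by gcongr; exact sq_le_one' hm
  have f4 : δ * m' ^ 2 ≤ δ * 1 := by gcongr; exact sq_le_one' hm'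
  have f5 := sq_nonneg (m ^ 2 - m' ^ 2)
  have hk : kk = 1 / 1000 := rfl
  rw [e]
  rw [hk] at d1 d2 ⊢
  linarith

lemma ee_bounds {m : ℝ} (hm : |m| ≤ 1) : 0 ≤ kk ^ 2 * (m ^ 2 + m ^ 4) / 16 + eta ∧
    kk ^ 2 * (m ^ 2 + m ^ 4) / 16 + eta ≤ 13 / 10 ^ 8 := by
  have h2 := sq_le_one' hm
  have h3 := sq_nonneg m
  have h4 : m ^ 4 ≤ 1 := by nlinarith
  have h5 : 0 ≤ m ^ 4 := by positivity
  unfold kk eta
  constructor <;> linarith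

lemma final_est {q U V e e' a b A δ : ℝ} (hq : 0 ≤ q) (hU : |U| ≤ kk) (hV : |V| ≤ kk)
    (e0 : 0 ≤ e) (e1 : e ≤ 13 / 10 ^ 8) (e0' : 0 ≤ e') (e1' : e' ≤ 13 / 10 ^ 8)
    (hδ : δ ≤ 1 / 10 ^ 6) (hmain : -(kk * δ) - kk ^ 2 / 8 * (A + 4 * δ) ≤ U - V)
    (hee : e + e' = kk ^ 2 * A / 16 + 2 * eta)
    (hid : 1 + q = a * (1 + q + U) + b * (1 + q - V)) (ha : 1 / 2 + e < a) (hb : 1 / 2 + e' < b) :
    False := by
  have hk : kk = 1 / 1000 := rfl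
  have g5 : eta = 1 / 10 ^ 9 := rfl
  rw [hk] at hU hV hmain hee
  rw [g5] at hee
  obtain ⟨u1, u2⟩ := abs_le.mp hU
  obtain ⟨v1, v2⟩ := abs_le.mp hV
  have hA : 0 < 1 + q + U := by linarith
  have hB : 0 < 1 + q - V := by linarith
  have h1 : (1 / 2 + e) * (1 + q + U) < a * (1 + q + U) := by gcongr
  have h2 : (1 / 2 + e') * (1 + q - V) < b * (1 + q - V) := by gcongr
  have g1 : e * (-(1 / 1000)) ≤ e * U := by gcongr
  have g2 : e' * V ≤ e' * (1 / 1000) := by gcongr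
  have g3 : 0 ≤ (e + e') * q := by positivity
  linarith

lemma cover_ineq {δ m m' c c' a b x y : ℝ} (hδ0 : 0 < δ) (hδ : δ ≤ 1 / 10 ^ 6)
    (hm : |m| ≤ 1) (hm' : |m'| ≤ 1) (hc1 : |c| ≤ 1) (hc1' : |c'| ≤ 1)
    (hc : |c - m| ≤ δ) (hc' : |c' - m'| ≤ δ)
    (hy : y = c * a + pp m δ * x) (hx : -x = c' * b + pp m' δ * y)
    (hsum : a + rr m * x + (b + rr m' * y) = 1) (ha : tt m < a) (hb : tt m' < b) : False := by
  obtain ⟨p0, p1, p2⟩ := pp_bounds hδ0 hδ hm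
  obtain ⟨p0', p1', p2'⟩ := pp_bounds hδ0 hδ hm'
  have r1 := rr_bounds hm
  have r1' := rr_bounds hm'
  obtain ⟨e0, e1⟩ := ee_bounds hm
  obtain ⟨e0', e1'⟩ := ee_bounds hm'
  have hmain := main_est hδ0 hm hm' hc hc' p0 p0' p1 p1'
  have hU := UV_bound r1' (r' := -rr m) (by rwa [abs_neg]) (p := pp m' δ)
    (by rwa [abs_of_nonneg p0']) hc1
  have hV := UV_bound r1 r1' (p := pp m δ) (by rwa [abs_of_nonneg p0]) hc1'
  refine final_est (mul_nonneg p0 p0') hU hV e0 e1 e0' e1' hδ hmain (by ring) ?_ ha hb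
  generalize pp m δ = p at *
  generalize pp m' δ = p' at *
  generalize rr m = r at *
  generalize rr m' = r' at *
  have e1 : y * (1 + p * p') = c * a - p * c' * b := by
    linear_combination hy - p * hx
  have e2 : x * (1 + p * p') = -c' * b - p' * c * a := by
    linear_combination -hx - p' * hy
  linear_combination (-(1 + p * p')) * hsum + r * e2 + r' * e1

lemma piece_aux {v γ e : ℝ} (v0 : 0 ≤ v) (v1 : v ≤ 1 / 10 ^ 6) (γ1 : -(1 / 10 ^ 6) ≤ γ)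
    (e0 : 0 ≤ e) (e1 : e ≤ 1 / 10 ^ 6) (key : e + 3 / 10 ^ 12 - 1 / 10 ^ 16 ≤ γ + v / 8) :
    (1 / 2 + e) ^ 2 / Real.sqrt (1 + v) ≤ 1 / 4 + γ := by
  have v2 : v ^ 2 ≤ 1 / 10 ^ 12 := by nlinarith
  have hs : 1 + v / 2 - v ^ 2 / 2 ≤ Real.sqrt (1 + v) := by
    apply Real.le_sqrt_of_sq_le
    have : 0 ≤ v ^ 2 * (3 / 4 + v / 2 - v ^ 2 / 4) := by
      apply mul_nonneg (sq_nonneg _); linarith
    linarith
  have hs0 : 0 < Real.sqrt (1 + v) := Real.sqrt_pos.mpr (by linarith)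
  rw [div_le_iff₀ hs0]
  have hG : 0 ≤ 1 / 4 + γ := by linarith
  have e2 : e ^ 2 ≤ 1 / 10 ^ 12 := by nlinarith
  have w0 : 0 ≤ v / 2 - v ^ 2 / 2 := by nlinarith
  have w3 : -(1 / 10 ^ 6) * (v / 2 - v ^ 2 / 2) ≤ γ * (v / 2 - v ^ 2 / 2) := by gcongr
  have := sq_nonneg v
  calc (1 / 2 + e) ^ 2 ≤ (1 / 4 + γ) * (1 + v / 2 - v ^ 2 / 2) := by linarith
    _ ≤ (1 / 4 + γ) * Real.sqrt (1 + v) := by gcongr

lemma piece_ineq {δ m : ℝ} (hδ0 : 0 < δ) (hδ : δ ≤ 1 / 10 ^ 6) (hm : |m| ≤ 1) :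
    tt m ^ 2 / Real.sqrt (1 + (pp m δ ^ 2 + 2 * rr m ^ 2)) ≤
      1 / 4 + (kk ^ 2 * (-1 - 2 * m ^ 2 + 7 * m ^ 4) / 128 + (eta + 3 * kk ^ 4)) := by
  have h2 : m ^ 2 ≤ 1 := sq_le_one' hm
  have h6 : 0 ≤ m ^ 2 := by positivity
  have h4 : m ^ 4 ≤ 1 := by nlinarith
  have h5 : 0 ≤ m ^ 4 := by positivity
  have hd2 : δ ^ 2 ≤ 1 / 10 ^ 12 := by nlinarith
  have hd0 : 0 ≤ δ ^ 2 := by positivity
  have hve : pp m δ ^ 2 + 2 * rr m ^ 2 = kk ^ 2 * ((1 + m ^ 2 - δ ^ 2) ^ 2 / 16 + m ^ 2 / 2) := by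
    simp only [pp, rr]; ring
  have hk : kk = 1 / 1000 := rfl
  have g5 : eta = 1 / 10 ^ 9 := rfl
  have w1 : (1 + m ^ 2 - δ ^ 2) ^ 2 ≤ 2 ^ 2 := by
    apply pow_le_pow_left₀ <;> linarith
  have w2 : (1 + m ^ 2) ^ 2 - 4 * δ ^ 2 ≤ (1 + m ^ 2 - δ ^ 2) ^ 2 := by
    have h7 : m ^ 2 * δ ^ 2 ≤ 1 * δ ^ 2 := by gcongr
    have h8 := sq_nonneg (δ ^ 2)
    linarith
  obtain ⟨e0, e1⟩ := ee_bounds hm
  apply piece_aux (by positivity) (by rw [hve, hk]; linarith) (by rw [hk, g5]; linarith) e0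
    (by linarith)
  rw [hve, hk, g5]
  linarith

lemma sum_ineq (δ : ℝ) (hδ0 : 0 < δ) (N : ℕ) :
    ∑ i ∈ Finset.range N, 2 * δ * (-1 - 2 * (-1 + δ * (2 * i + 1)) ^ 2 +
      7 * (-1 + δ * (2 * i + 1)) ^ 4) ≤
      (-(-1 + 2 * δ * N) - 2 * (-1 + 2 * δ * N) ^ 3 / 3 + 7 * (-1 + 2 * δ * N) ^ 5 / 5) - 4 / 15
        + N * (4 / 3 * δ ^ 3) := by
  induction N with
  | zero => norm_num
  | succ N ih =>
    rw [Finset.sum_range_succ]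
    push_cast
    set m := -1 + δ * (2 * N + 1) with hm
    have e1 : -1 + 2 * δ * (N + 1) = m + δ := by rw [hm]; ring
    have e2 : -1 + 2 * δ * N = m - δ := by rw [hm]; ring
    rw [e1]
    rw [e2] at ih
    have : 0 ≤ 28 * m ^ 2 * δ ^ 3 + 14 / 5 * δ ^ 5 := by positivity
    nlinarith

lemma total_ineq (δ : ℝ) (hδ0 : 0 < δ) (hδ : δ ≤ 1 / 10 ^ 6) (N : ℕ) (hN : δ * N = 1) :
    ∑ i ∈ Finset.range N, 2 * δ * (tt (-1 + δ * (2 * i + 1)) ^ 2 /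
      Real.sqrt (1 + (pp (-1 + δ * (2 * i + 1)) δ ^ 2 + 2 * rr (-1 + δ * (2 * i + 1)) ^ 2))) ≤
      1 / 2 - 1 / 10 ^ 9 := by
  have h1 : ∀ i ∈ Finset.range N, 2 * δ * (tt (-1 + δ * (2 * i + 1)) ^ 2 /
      Real.sqrt (1 + (pp (-1 + δ * (2 * i + 1)) δ ^ 2 + 2 * rr (-1 + δ * (2 * i + 1)) ^ 2))) ≤
      2 * δ * (1 / 4 + (eta + 3 * kk ^ 4)) + kk ^ 2 / 128 * (2 * δ * (-1 - 2 *
        (-1 + δ * (2 * i + 1)) ^ 2 + 7 * (-1 + δ * (2 * i + 1)) ^ 4)) := by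
    intro i hi
    have hi' : (i:ℝ) + 1 ≤ N := by exact_mod_cast Finset.mem_range.mp hi
    have hi0 : (0:ℝ) ≤ i := by positivity
    have hm : |-1 + δ * (2 * i + 1)| ≤ 1 := by
      rw [abs_le]; constructor <;> nlinarith
    have := piece_ineq hδ0 hδ hm
    have := mul_le_mul_of_nonneg_left this (by positivity : 0 ≤ 2 * δ)
    linarith
  refine (Finset.sum_le_sum h1).trans ?_
  rw [Finset.sum_add_distrib, Finset.sum_const, Finset.card_range, nsmul_eq_mul, ← Finset.mul_sum]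
  have h2 := sum_ineq δ hδ0 N
  have e1 : -1 + 2 * δ * N = 1 := by linarith
  rw [e1] at h2
  have e2 : N * (4 / 3 * δ ^ 3) = 4 / 3 * δ ^ 2 := by linear_combination (4 / 3 * δ ^ 2) * hN
  have e3 : N * (2 * δ * (1 / 4 + (eta + 3 * kk ^ 4))) = 2 * (1 / 4 + (eta + 3 * kk ^ 4)) := by
    linear_combination (2 * (1 / 4 + (eta + 3 * kk ^ 4))) * hN
  rw [e2] at h2
  rw [e3]
  have hd2 : δ ^ 2 ≤ 1 / 10 ^ 12 := by nlinarith
  have hk : kk = 1 / 1000 := rfl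
  have g5 : eta = 1 / 10 ^ 9 := rfl
  rw [hk, g5]
  linarith

end Vale.Agent.P243
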