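import Mathlib
import Vale.Agent.P243.Defs
import Vale.Agent.P243.Area
import Vale.Agent.P243.Ineq

namespace Vale.Agent.P243

open MeasureTheory
open scoped ENNReal InnerProductSpace

noncomputable def hh : ℝ := Real.sqrt 2

lemma hh_pos : 0 < hh := Real.sqrt_pos.mpr (by norm_num)
lemma hh_sq : hh ^ 2 = 2 := Real.sq_sqrt (by norm_num)

noncomputable def VV : Fin 4 → E3 := ![!₂[-1, 0, 0], !₂[1, 0, 0], !₂[0, -1, hh], !₂[0, 1, hh]]

noncomputable def KK : Set E3 := convexHull ℝ (Set.range VV)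

lemma dist_VV : ∀ i j, i ≠ j → dist (VV i) (VV j) = 2 := by
  intro i j hij
  rw [EuclideanSpace.dist_eq, Real.sqrt_eq_iff_mul_self_eq_of_pos (by norm_num)]
  have := hh_sq
  fin_cases i <;> fin_cases j <;> simp_all [VV, Fin.sum_univ_three, Real.dist_eq] <;> norm_num

lemma mem_KK_iff (w : E3) : w ∈ KK ↔ |w 1| ≤ w 2 / hh ∧ |w 0| ≤ 1 - w 2 / hh := by
  have hp := hh_pos
  constructor
  · intro hw
    have : KK ⊆ {w : E3 | |w 1| ≤ w 2 / hh ∧ |w 0| ≤ 1 - w 2 / hh} := by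
      apply convexHull_min
      · rintro _ ⟨i, rfl⟩
        fin_cases i <;> simp [VV, div_self hp.ne']
      · rintro x ⟨hx1, hx2⟩ y ⟨hy1, hy2⟩ a b ha hb hab
        simp only [Set.mem_ofPred_eq, PiLp.add_apply, PiLp.smul_apply, smul_eq_mul]
        rw [abs_le] at *
        rw [abs_le]
        have e : (a * x 2 + b * y 2) / hh = a * (x 2 / hh) + b * (y 2 / hh) := by ring
        rw [e]
        refine ⟨⟨?_, ?_⟩, ?_, ?_⟩ <;> nlinarith [hx1.1, hx1.2, hx2.1, hx2.2, hy1.1, hy1.2, hy2.1, hy2.2]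
    exact this hw
  · rintro ⟨h1, h2⟩
    rw [abs_le] at h1 h2
    have := (convex_convexHull ℝ (Set.range VV)).sum_mem (t := Finset.univ)
      (w := ![(1 - w 2 / hh - w 0) / 2, (1 - w 2 / hh + w 0) / 2, (w 2 / hh - w 1) / 2,
        (w 2 / hh + w 1) / 2]) (z := VV)
      (by intro i _; fin_cases i <;> simp <;> linarith [h1.1, h1.2, h2.1, h2.2])
      (by simp [Fin.sum_univ_four]; ring)
      (by intro i _; exact subset_convexHull ℝ _ ⟨i, rfl⟩)
    unfold KK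
    convert this using 1
    ext i
    fin_cases i <;> simp [VV, Fin.sum_univ_four] <;> field_simp <;> ring

lemma interior_KK : (interior KK).Nonempty := by
  have hp := hh_pos
  refine ⟨!₂[0, 0, hh / 2], ?_⟩
  rw [mem_interior]
  refine ⟨{w : E3 | |w 1| < w 2 / hh} ∩ {w : E3 | |w 0| < 1 - w 2 / hh}, ?_, ?_, ?_⟩
  · rintro w ⟨h1, h2⟩
    exact (mem_KK_iff w).mpr ⟨le_of_lt h1, le_of_lt h2⟩
  · exact (isOpen_lt (by fun_prop) (by fun_prop)).inter (isOpen_lt (by fun_prop) (by fun_prop))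
  · have : hh / 2 / hh = 1 / 2 := by field_simp
    constructor
    · simp [this]
    · simp [this]; norm_num

lemma VV_mem (i : Fin 4) : VV i ∈ KK := subset_convexHull ℝ _ ⟨i, rfl⟩

lemma key_min {X Y Z M h : ℝ} (hX : 0 ≤ X) (hY : 0 ≤ Y) (hZ : 0 ≤ Z) (hp : 0 < h) (h2 : h ^ 2 = 2)
    (hu : X ^ 2 + Y ^ 2 + Z ^ 2 = 1) (hXY : Y ≤ X) (m1 : h * (X + Y) ≤ M) (m2 : h * X + Z ≤ M)
    (m3 : 2 * Z ≤ M) : h ≤ M := by
  by_contra hlt
  push Not at hlt
  have a1 : X + Y < 1 := by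
    by_contra hc
    push Not at hc
    nlinarith
  have a2 : Z < h * (1 - X) := by linarith
  have a3 : Z < h / 2 := by linarith
  have b2 : Z ^ 2 < (h * (1 - X)) ^ 2 := by gcongr
  have b3 : Z ^ 2 < (h / 2) ^ 2 := by gcongr
  rw [mul_pow, h2] at b2
  rw [div_pow, h2] at b3
  rcases le_total (1 / 2) X with hc | hc
  · have : Y ^ 2 ≤ (1 - X) ^ 2 := by gcongr; linarith
    nlinarith
  · nlinarith

lemma area_proj_ge {u : E3} (hu : ‖u‖ = 1) : ENNReal.ofReal hh ≤ area (proj u '' KK) := by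
  have hK : Convex ℝ KK := convex_convexHull ℝ _
  by_cases htop : area (proj u '' KK) = ∞
  · rw [htop]; exact le_top
  set M := (area (proj u '' KK)).toReal with hM
  have hq : ∀ i j k l : Fin 4, |det3 (VV j - VV i) (VV k - VV l) u| / 2 ≤ M := by
    intro i j k l
    have := area_ge_quad hK hu (VV_mem i) (VV_mem j) (VV_mem k) (VV_mem l)
    exact (ENNReal.ofReal_le_iff_le_toReal htop).mp this
  rw [ENNReal.ofReal_le_iff_le_toReal htop, ← hM]
  have hp := hh_pos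
  have q1 := hq 0 1 3 2
  have q2 := hq 0 2 3 1
  have q3 := hq 0 3 2 1
  have q4 := hq 0 1 3 0
  have q5 := hq 0 1 2 0
  have q6 := hq 2 3 0 2
  have q7 := hq 2 3 1 2
  simp only [VV, det3, PiLp.sub_apply] at q1 q2 q3 q4 q5 q6 q7
  simp at q1 q2 q3 q4 q5 q6 q7
  have e2 : |(1:ℝ) + 1| = 2 := by norm_num
  rw [e2] at q1 q4 q5 q6 q7
  rw [div_le_iff₀ (by norm_num), abs_le] at q2 q3
  rw [mul_div_cancel_left₀ _ (two_ne_zero), abs_le] at q4 q5 q6 q7
  have hu3 := unit3 hu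
  have s0 := sq_abs (u 0)
  have s1 := sq_abs (u 1)
  have s2 := sq_abs (u 2)
  have m1 : hh * (|u 0| + |u 1|) ≤ M := by
    rcases abs_cases (u 0) with h | h <;> rcases abs_cases (u 1) with h' | h' <;>
      rw [h.1, h'.1] <;> linarith [q2.1, q2.2, q3.1, q3.2]
  have m2 : hh * |u 0| + |u 2| ≤ M := by
    rcases abs_cases (u 0) with h | h <;> rcases abs_cases (u 2) with h' | h' <;>
      rw [h.1, h'.1] <;> linarith [q6.1, q6.2, q7.1, q7.2]
  have m2' : hh * |u 1| + |u 2| ≤ M := by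
    rcases abs_cases (u 1) with h | h <;> rcases abs_cases (u 2) with h' | h' <;>
      rw [h.1, h'.1] <;> linarith [q4.1, q4.2, q5.1, q5.2]
  have m3 : 2 * |u 2| ≤ M := by
    linarith
  rcases le_total |u 1| |u 0| with hc | hc
  · exact key_min (abs_nonneg _) (abs_nonneg _) (abs_nonneg (u 2)) hp hh_sq (by linarith) hc m1 m2 m3
  · exact key_min (abs_nonneg _) (abs_nonneg _) (abs_nonneg (u 2)) hp hh_sq (by linarith) hc
      (by linarith) m2' m3

lemma Amin_KK : Amin KK = ENNReal.ofReal hh := by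
  apply le_antisymm
  · have hp := hh_pos
    let u : E3 := !₂[1, 0, 0]
    have hu : ‖u‖ = 1 := by simp [u, EuclideanSpace.norm_eq, Fin.sum_univ_three]
    refine (iInf₂_le u hu).trans ?_
    have hsub : proj u '' KK ⊆ par u 0 (VV 2) (VV 3) '' triC := by
      rintro _ ⟨w, hw, rfl⟩
      obtain ⟨h1, h2⟩ := (mem_KK_iff w).mp hw
      rw [abs_le] at h1 h2
      refine ⟨((w 2 / hh - w 1) / 2, (w 2 / hh + w 1) / 2), ⟨?_, ?_, ?_⟩, ?_⟩
      · simp only; linarith [h1.2]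
      · simp only; linarith [h1.1]
      · simp only; linarith [h2.1, h2.2]
      · ext i
        fin_cases i <;> simp [par, proj, inner3, VV, u] <;> field_simp <;> ring
    refine (measure_mono hsub).trans ?_
    have := area_par hu 0 (VV 2) (VV 3) triC
    unfold area at this
    rw [this]
    have hd : |det3 (VV 2) (VV 3) u| = 2 * hh := by
      have : det3 (VV 2) (VV 3) u = -(2 * hh) := by simp [det3, VV, u]; ring
      rw [this, abs_neg, abs_of_pos (by positivity)]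
    rw [hd]
    apply ENNReal.le_of_forall_pos_le_add
    intro ε hε _
    have hε' : (0:ℝ) < ε := hε
    calc ENNReal.ofReal (2 * hh) * volume triC
        ≤ ENNReal.ofReal (2 * hh) * ENNReal.ofReal (1 / 2 + 2 * (ε / (4 * hh))) := by
          gcongr; exact vol_triC_le _ (by positivity)
      _ = ENNReal.ofReal (hh + ε) := by
          rw [← ENNReal.ofReal_mul (by positivity)]; congr 1; field_simp; ring
      _ = _ := by rw [ENNReal.ofReal_add hp.le hε'.le, ENNReal.ofReal_coe_nnreal]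
  · exact le_iInf₂ fun u hu => area_proj_ge hu

/-- unit vector in direction `d` -/
noncomputable def un (d : E3) : E3 := ‖d‖⁻¹ • d

lemma norm_un {d : E3} (hd : d ≠ 0) : ‖un d‖ = 1 := by
  rw [un, norm_smul, norm_inv, norm_norm, inv_mul_cancel₀ (norm_ne_zero_iff.mpr hd)]

lemma mem_cyl {d o a b w : E3} (hd : d ≠ 0) {s t x : ℝ} (hst : (s, t) ∈ triC)
    (hw : w = o + s • a + t • b + x • d) : w ∈ cylinder (par (un d) o a b '' triC) (un d) := by
  refine ⟨_, ⟨(s, t), hst, rfl⟩, ⟪un d, o + s • a + t • b⟫_ℝ + x * ‖d‖, ?_⟩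
  have : d = ‖d‖ • un d := by
    rw [un, smul_smul, mul_inv_cancel₀ (norm_ne_zero_iff.mpr hd), one_smul]
  rw [hw, par, proj, add_smul, mul_smul, ← this]
  abel

lemma det3_un (a b d : E3) : det3 a b (un d) = det3 a b d / ‖d‖ := by
  simp [det3, un]; ring

noncomputable def dL (m δ : ℝ) : E3 := !₂[1, pp m δ, hh * rr m]
noncomputable def dU (m δ : ℝ) : E3 := !₂[-pp m δ, 1, -(hh * rr m)]
noncomputable def BL (m δ : ℝ) : Set E3 :=
  par (un (dL m δ)) 0 !₂[0, tt m * (m - δ), tt m * hh] !₂[0, tt m * (m + δ), tt m * hh] '' triC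
noncomputable def BU (m δ : ℝ) : Set E3 :=
  par (un (dU m δ)) !₂[0, 0, hh] !₂[-(tt m * (m - δ)), 0, -(tt m * hh)]
    !₂[-(tt m * (m + δ)), 0, -(tt m * hh)] '' triC

lemma dL_ne (m δ : ℝ) : dL m δ ≠ 0 := by
  intro h; have := congrArg (fun v : E3 => v 0) h; simp [dL] at this
lemma dU_ne (m δ : ℝ) : dU m δ ≠ 0 := by
  intro h; have := congrArg (fun v : E3 => v 1) h; simp [dU] at this

lemma norm_dL (m δ : ℝ) : ‖dL m δ‖ = Real.sqrt (1 + (pp m δ ^ 2 + 2 * rr m ^ 2)) := by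
  rw [EuclideanSpace.norm_eq]; congr 1
  simp [dL, Fin.sum_univ_three, mul_pow, hh_sq]; ring
lemma norm_dU (m δ : ℝ) : ‖dU m δ‖ = Real.sqrt (1 + (pp m δ ^ 2 + 2 * rr m ^ 2)) := by
  rw [EuclideanSpace.norm_eq]; congr 1
  simp [dU, Fin.sum_univ_three, mul_pow, hh_sq]; ring

lemma area_BL (m δ : ℝ) (hδ : 0 < δ) : area (BL m δ) = ENNReal.ofReal (hh * (2 * δ * (tt m ^ 2 /
    Real.sqrt (1 + (pp m δ ^ 2 + 2 * rr m ^ 2))))) * volume triC := by
  have hp := hh_pos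
  rw [BL, area_par (norm_un (dL_ne m δ)), det3_un, norm_dL]
  congr 2
  have : det3 !₂[0, tt m * (m - δ), tt m * hh] !₂[0, tt m * (m + δ), tt m * hh] (dL m δ) =
      -(hh * (2 * δ * tt m ^ 2)) := by simp [det3, dL]; ring
  rw [this, neg_div, abs_neg, abs_of_nonneg (by positivity)]
  ring

lemma area_BU (m δ : ℝ) (hδ : 0 < δ) : area (BU m δ) = ENNReal.ofReal (hh * (2 * δ * (tt m ^ 2 /
    Real.sqrt (1 + (pp m δ ^ 2 + 2 * rr m ^ 2))))) * volume triC := by
  have hp := hh_pos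
  rw [BU, area_par (norm_un (dU_ne m δ)), det3_un, norm_dU]
  congr 2
  have : det3 !₂[-(tt m * (m - δ)), 0, -(tt m * hh)] !₂[-(tt m * (m + δ)), 0, -(tt m * hh)]
      (dU m δ) = (hh * (2 * δ * tt m ^ 2)) := by simp [det3, dU]; ring
  rw [this, abs_of_nonneg (by positivity)]
  ring

lemma sector' (δ : ℝ) (hδ : 0 < δ) (N : ℕ) (hN : δ * N = 1) (x y Z : ℝ) (hy : |y| ≤ Z) :
    ∃ i < N, ∃ m : ℝ, m = -1 + δ * (2 * i + 1) ∧ |m| ≤ 1 ∧
      ((∃ s t : ℝ, (s, t) ∈ triC ∧ y - pp m δ * x = tt m * (s * (m - δ) + t * (m + δ)) ∧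
          Z - rr m * x = tt m * (s + t)) ∨
        (∃ c a : ℝ, |c| ≤ 1 ∧ |c - m| ≤ δ ∧ y = c * a + pp m δ * x ∧ a + rr m * x = Z ∧
          tt m < a)) := by
  obtain ⟨i, hi, h1, h2⟩ := sector δ kk N hN x y Z hy
  have hi' : (i:ℝ) + 1 ≤ N := by exact_mod_cast hi
  have hi0 : (0:ℝ) ≤ i := by positivity
  refine ⟨i, hi, _, rfl, ?_⟩
  set m := -1 + δ * (2 * i + 1) with hm
  have m1 : -1 ≤ m - δ := by rw [hm]; nlinarith
  have m2 : m + δ ≤ 1 := by rw [hm]; nlinarith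
  have hm1 : |m| ≤ 1 := by rw [abs_le]; constructor <;> linarith
  refine ⟨hm1, ?_⟩
  have e1 : -1 + 2 * δ * i = m - δ := by rw [hm]; ring
  have e2 : -1 + 2 * δ * (i + 1) = m + δ := by rw [hm]; ring
  rw [e1] at h1
  rw [e2] at h2
  set Y := y - pp m δ * x with hY
  set W := Z - rr m * x with hW
  have g1 : (m - δ) * W ≤ Y := by
    have : Y - (m - δ) * W = y - (m - δ) * Z - kk * x * (1 - (m - δ) ^ 2) / 4 := by
      simp only [hY, hW, pp, rr]; ring
    linarith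
  have g2 : Y ≤ (m + δ) * W := by
    have : Y - (m + δ) * W = y - (m + δ) * Z - kk * x * (1 - (m + δ) ^ 2) / 4 := by
      simp only [hY, hW, pp, rr]; ring
    linarith
  have ht : 0 < tt m := by linarith [(tt_bounds hm1).1]
  by_cases hc : W ≤ tt m
  · left
    refine ⟨((m + δ) * W - Y) / (2 * δ * tt m), (Y - (m - δ) * W) / (2 * δ * tt m),
      ⟨?_, ?_, ?_⟩, ?_, ?_⟩
    · exact div_nonneg (by linarith) (by positivity)
    · exact div_nonneg (by linarith) (by positivity)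
    · simp only
      rw [← add_div, div_le_one (by positivity)]
      nlinarith
    · field_simp; ring
    · field_simp; ring
  · right
    push Not at hc
    have hW0 : 0 < W := by linarith
    have c1 : m - δ ≤ Y / W := by rw [le_div_iff₀ hW0]; exact g1
    have c2 : Y / W ≤ m + δ := by rw [div_le_iff₀ hW0]; exact g2
    refine ⟨Y / W, W, ?_, ?_, ?_, ?_, hc⟩
    · rw [abs_le]; constructor <;> linarith
    · rw [abs_le]; constructor <;> linarith
    · rw [div_mul_cancel₀ _ hW0.ne', hY]; ring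
    · rw [hW]; ring

theorem covered (δ : ℝ) (hδ0 : 0 < δ) (hδ : δ ≤ 1 / 10 ^ 6) (N : ℕ) (hN : δ * N = 1) (w : E3)
    (hw : w ∈ KK) : ∃ i < N, ∃ m : ℝ, m = -1 + δ * (2 * i + 1) ∧
      (w ∈ cylinder (BL m δ) (un (dL m δ)) ∨ w ∈ cylinder (BU m δ) (un (dU m δ))) := by
  have hp := hh_pos
  obtain ⟨h1, h2⟩ := (mem_KK_iff w).mp hw
  obtain ⟨i, hi, m, hm, hm1, hA⟩ := sector' δ hδ0 N hN (w 0) (w 1) (w 2 / hh) h1
  obtain ⟨j, hj, m', hm', hm1', hB⟩ := sector' δ hδ0 N hN (w 1) (-w 0) (1 - w 2 / hh)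
    (by rwa [abs_neg])
  rcases hA with ⟨s, t, hst, e1, e2⟩ | ⟨c, a, c1, c2, c3, c4, c5⟩
  · refine ⟨i, hi, m, hm, Or.inl (mem_cyl (dL_ne m δ) hst (x := w 0) ?_)⟩
    have e3 : w 2 = hh * (w 2 / hh) := by field_simp
    ext k
    fin_cases k
    · simp [dL]
    · simp [dL]; linarith
    · simp [dL]; rw [e3]; linear_combination hh * e2
  rcases hB with ⟨s, t, hst, e1, e2⟩ | ⟨c', b, c1', c2', c3', c4', c5'⟩
  · refine ⟨j, hj, m', hm', Or.inr (mem_cyl (dU_ne m' δ) hst (x := w 1) ?_)⟩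
    have e3 : w 2 = hh * (w 2 / hh) := by field_simp
    ext k
    fin_cases k
    · simp [dU]; linarith
    · simp [dU]
    · simp [dU]; rw [e3]; linear_combination (-hh) * e2
  exact (cover_ineq hδ0 hδ hm1 hm1' c1 c1' c2 c2' c3 c3' (by linarith) c5 c5').elim

lemma measurable_par (u o a b : E3) : MeasurableSet (par u o a b '' triC) := by
  apply IsClosed.measurableSet
  apply IsCompact.isClosed
  apply isCompact_triC.image
  have := continuous_proj u
  unfold par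
  fun_prop

theorem main_aux (δ : ℝ) (hδ0 : 0 < δ) (hδ : δ ≤ 1 / 10 ^ 6) (N : ℕ) (hN : δ * N = 1) :
    ∃ (u : Fin N ⊕ Fin N → E3) (B : Fin N ⊕ Fin N → Set E3), (∀ i, ‖u i‖ = 1) ∧
    (∀ i, ∀ b ∈ B i, inner ℝ (u i) b = 0) ∧ (∀ i, MeasurableSet (B i)) ∧
    KK ⊆ ⋃ i, cylinder (B i) (u i) ∧ ∑ i, area (B i) < ENNReal.ofReal hh / 2 := by
  have hp := hh_pos
  obtain ⟨mm, hmm⟩ : ∃ mm : Fin N → ℝ, mm = fun i : Fin N => -1 + δ * (2 * ((i : ℕ) : ℝ) + 1) :=
    ⟨_, rfl⟩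
  refine ⟨Sum.elim (fun i => un (dL (mm i) δ)) (fun i => un (dU (mm i) δ)),
    Sum.elim (fun i => BL (mm i) δ) (fun i => BU (mm i) δ), ?_, ?_, ?_, ?_, ?_⟩
  · rintro (j | j)
    · exact norm_un (dL_ne (mm j) δ)
    · exact norm_un (dU_ne (mm j) δ)
  · rintro (j | j)
    · simp only [Sum.elim_inl, BL]
      rintro _ ⟨st, _, rfl⟩; exact inner_proj (norm_un (dL_ne (mm j) δ)) _
    · simp only [Sum.elim_inr, BU]
      rintro _ ⟨st, _, rfl⟩; exact inner_proj (norm_un (dU_ne (mm j) δ)) _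
  · rintro (j | j)
    · simp only [Sum.elim_inl, BL]
      exact measurable_par _ _ _ _
    · simp only [Sum.elim_inr, BU]
      exact measurable_par _ _ _ _
  · intro w hw
    obtain ⟨i, hi, m, hm, h⟩ := covered δ hδ0 hδ N hN w hw
    have hm' : m = mm ⟨i, hi⟩ := by rw [hmm, hm]
    rw [Set.mem_iUnion]
    rw [hm'] at h
    rcases h with h | h
    · exact ⟨Sum.inl ⟨i, hi⟩, h⟩
    · exact ⟨Sum.inr ⟨i, hi⟩, h⟩
  · rw [Fintype.sum_sum_type]
    simp only [Sum.elim_inl, Sum.elim_inr, area_BL _ _ hδ0, area_BU _ _ hδ0]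
    rw [← Finset.sum_mul, ← ENNReal.ofReal_sum_of_nonneg (fun i _ => by positivity),
      ← Finset.mul_sum]
    have h1 := total_ineq δ hδ0 hδ N hN
    rw [Finset.sum_range] at h1
    have h2 := vol_triC_le (1 / 10 ^ 11) (by positivity)
    have h3 : ENNReal.ofReal (hh * ∑ i : Fin N, 2 * δ * (tt (mm i) ^ 2 /
        Real.sqrt (1 + (pp (mm i) δ ^ 2 + 2 * rr (mm i) ^ 2)))) * volume triC ≤
        ENNReal.ofReal (hh * (1 / 2 - 1 / 10 ^ 9)) * ENNReal.ofReal (1 / 2 + 2 * (1 / 10 ^ 11)) := by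
      rw [hmm]
      gcongr
    refine (add_le_add h3 h3).trans_lt ?_
    rw [← ENNReal.ofReal_mul (by positivity), ← ENNReal.ofReal_add (by positivity) (by positivity)]
    have : ENNReal.ofReal hh / 2 = ENNReal.ofReal (hh / 2) := by
      rw [ENNReal.ofReal_div_of_pos (by norm_num)]; simp
    rw [this, ENNReal.ofReal_lt_ofReal_iff (by positivity)]
    nlinarith

theorem main : ∃ (m : ℕ) (u : Fin m → E3) (B : Fin m → Set E3), (∀ i, ‖u i‖ = 1) ∧
    (∀ i, ∀ b ∈ B i, inner ℝ (u i) b = 0) ∧ (∀ i, MeasurableSet (B i)) ∧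
    KK ⊆ ⋃ i, cylinder (B i) (u i) ∧ ∑ i, area (B i) < ENNReal.ofReal hh / 2 := by
  obtain ⟨N, hN⟩ : ∃ N : ℕ, (1 / 10 ^ 6 : ℝ) * N = 1 := ⟨10 ^ 6, by norm_num⟩
  obtain ⟨u, B, h1, h2, h3, h4, h5⟩ := main_aux _ (by positivity) le_rfl N hN
  refine ⟨N + N, fun i => u (finSumFinEquiv.symm i), fun i => B (finSumFinEquiv.symm i),
    fun i => h1 _, fun i => h2 _, fun i => h3 _, ?_, ?_⟩
  · intro w hw
    obtain ⟨i, hi⟩ := Set.mem_iUnion.mp (h4 hw)
    exact Set.mem_iUnion.mpr ⟨finSumFinEquiv i, by simpa only [Equiv.symm_apply_apply] using hi⟩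
  · rwa [Equiv.sum_comp finSumFinEquiv.symm (fun i => area (B i))]

lemma area_proj_lt_top {K : Set E3} (hK : IsCompact K) {u : E3} (hu : ‖u‖ = 1) :
    area (proj u '' K) < ∞ := by
  have key : ∀ (a b : E3) (φ : E3 → ℝ × ℝ), Continuous φ →
      (∀ w, ∃ c : ℝ, w = 0 + (φ w).1 • a + (φ w).2 • b + c • u) → area (proj u '' K) < ∞ := by
    intro a b φ hφ h
    have hsub : proj u '' K ⊆ par u 0 a b '' (φ '' K) := by
      rintro _ ⟨w, hw, rfl⟩
      refine ⟨φ w, ⟨w, hw, rfl⟩, ?_⟩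
      obtain ⟨c, hc⟩ := h w
      rw [par]
      generalize (0 : E3) + (φ w).1 • a + (φ w).2 • b = z at hc
      rw [hc, proj, proj, inner_add_right, inner_smul_right, real_inner_self_eq_norm_sq, hu,
        add_smul]
      simp
    refine (measure_mono hsub).trans_lt ?_
    have := area_par hu 0 a b (φ '' K)
    unfold area at this
    rw [this]
    exact ENNReal.mul_lt_top ENNReal.ofReal_lt_top (hK.image hφ).measure_lt_top
  have h3 := unit3 hu
  by_cases h0 : u 0 = 0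
  · by_cases h1 : u 1 = 0
    · have h2 : u 2 ≠ 0 := by intro h2; rw [h0, h1, h2] at h3; norm_num at h3
      refine key !₂[1, 0, 0] !₂[0, 1, 0]
        (fun w => (w 0 - w 2 / u 2 * u 0, w 1 - w 2 / u 2 * u 1)) (by fun_prop) fun w => ⟨w 2 / u 2, ?_⟩
      ext k; fin_cases k <;> simp [h2]
    · refine key !₂[1, 0, 0] !₂[0, 0, 1]
        (fun w => (w 0 - w 1 / u 1 * u 0, w 2 - w 1 / u 1 * u 2)) (by fun_prop) fun w => ⟨w 1 / u 1, ?_⟩
      ext k; fin_cases k <;> simp [h1]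
  · refine key !₂[0, 1, 0] !₂[0, 0, 1]
      (fun w => (w 1 - w 0 / u 0 * u 1, w 2 - w 0 / u 0 * u 2)) (by fun_prop) fun w => ⟨w 0 / u 0, ?_⟩
    ext k; fin_cases k <;> simp [h0]

end Vale.Agent.P243
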